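import Vale.Agent.H1.P007Main

/-!
P007. Q1 is false in every composite degree `n ≥ 4`, and a necessary condition for
equidistribution of packets in every degree.

Reason: if all orders `O_i` contain (a copy of) the same non-rational algebraic integer `β`,
every lattice of every packet is stable under the diagonal matrix of the conjugates of `β`; such
lattices form a closed proper subset of `X_n`, while `m_n` has full support.
-/

namespace Vale.Agent.Results.P007.CompositeDegree

open MeasureTheory Vale.Agent.H1.P007

theorem result :
    (∀ n : ℕ, 4 ≤ n → ¬ n.Prime → ∀ m : Measure (X n), IsInvProb m → ¬ HigherDuke n m) ∧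
    (∀ (n : ℕ) (m : Measure (X n)), IsInvProb m → ∀ D : ℕ → Datum n,
      Equidistributes D m → ∀ f : Polynomial ℤ, Irreducible f → 2 ≤ f.natDegree →
        {i | HasRoot (D i).O f}.Finite) :=
  ⟨fun _ hn hc _ hm => not_higherDuke hn hc hm,
    fun _ _ hm D hD _ hf hdeg => finite_of_weaklyTendsto hm D hD hf hdeg⟩

end Vale.Agent.Results.P007.CompositeDegree
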