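import Vale.Agent.H1.P007Final

/-!
P007, with maximal orders.

(1) In every composite degree `n ≥ 4` there are maximal orders `O_i`, `|Disc O_i| → ∞`, and a
fixed nonempty open set `U` of mass zero for all their packet measures. Hence Q1 is false in every
composite degree, already for maximal orders and along every subsequence of these sequences.
(2) A sequence of measures that vanish on a fixed nonempty open set does not converge to `m_n`.
(3) Necessary condition: for equidistribution, the orders may not contain elements outside `ℤ`
of bounded size infinitely often.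
(4) All packets are finite and all packet measures are probability measures.
-/

namespace Vale.Agent.Results.P007.MaximalOrders

open MeasureTheory Filter Vale.Agent.H1.P007

variable {K : Type} [Field K] {n : ℕ}

/-- `O` contains all algebraic integers of `K`. -/
def IsMaximal (O : Subring K) : Prop := ∀ x, IsIntegral ℤ x → x ∈ O

/-- `O` contains an element outside `ℤ` whose conjugates all have absolute value at most `B`. -/
def HasSmall (σ : Fin n ≃ (K →+* ℝ)) (O : Subring K) (B : ℝ) : Prop :=
  ∃ β ∈ O, (∀ z : ℤ, β ≠ z) ∧ ∀ j, |σ j β| ≤ B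

/-- Some nonempty open set is a null set for all `μ_i`. -/
def MissesOpen (μ : ℕ → Measure (X n)) : Prop :=
  ∃ U : Set (X n), IsOpen U ∧ U.Nonempty ∧ ∀ i, μ i U = 0

theorem result : (∀ n : ℕ, 4 ≤ n → ¬ n.Prime →
    (∃ D : ℕ → Datum n, (∀ i, IsMaximal (D i).O) ∧
      Tendsto (fun i => absDisc (D i).O) atTop atTop ∧
      MissesOpen fun i => packetMeasure (D i).σ (D i).O) ∧
    ∀ m, IsInvProb m → ¬ HigherDuke n m) ∧
  ∀ n, (∀ m : Measure (X n), IsInvProb m → (∀ μ, MissesOpen μ → ¬ WeaklyTendsto μ m) ∧
    ∀ D, Equidistributes D m → ∀ B, {i | HasSmall (D i).σ (D i).O B}.Finite) ∧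
  ∀ D : Datum n, (packet D.σ D.O).Finite ∧ IsProbabilityMeasure (packetMeasure D.σ D.O) :=
  ⟨composite, general⟩

end Vale.Agent.Results.P007.MaximalOrders
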